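/-
S0066 (row 47) — package L1 (`between_imp`), backup track by helper49.
Statement verbatim from `Crest.Agent.Helper5.S0066.Spec.between_imp`.
-/
import Crest.Agent.Helper5.S0066.Defs

set_option autoImplicit false

namespace Crest.Agent.Helper49.S0066

open Crest.Agent.Helper5.S0066 Line

variable {h : ℕ}

/-- From a lexicographic comparison keep only: weak inequality of the second components and
strictness when the third components are in the wrong order. -/
private theorem lex_facts {a2 b2 a3 b3 a4 b4 : ℕ}
    (hle : 2 < 2 ∨ (True ∧ (a2 < b2 ∨ (a2 = b2 ∧ (a3 < b3 ∨ (a3 = b3 ∧ a4 ≤ b4)))))) :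
    a2 ≤ b2 ∧ (b3 < a3 → a2 < b2) := by
  omega

/-- Dyadic arithmetic core. -/
private theorem div_eq_of_keys (Q t c s cc yv : ℕ)
    (hy1 : 2 * Q * cc ≤ yv) (hy2 : yv < 2 * Q * (cc + 1))
    (hL : 2 * Q * (2 * c * t + s * t) < 2 * Q * (cc + 1))
    (hU : 2 * Q * cc < 2 * Q * (2 * c * t + s * t + t)) :
    yv / (2 * Q * t) = 2 * c + s := by
  have h1 : 2 * c * t + s * t < cc + 1 := Nat.lt_of_mul_lt_mul_left hL
  have h2 : cc < 2 * c * t + s * t + t := Nat.lt_of_mul_lt_mul_left hU
  apply Nat.div_eq_of_lt_le
  · calc (2 * c + s) * (2 * Q * t) = 2 * Q * (2 * c * t + s * t) := by ring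
      _ ≤ 2 * Q * cc := Nat.mul_le_mul_left _ (by omega)
      _ ≤ yv := hy1
  · calc yv < 2 * Q * (cc + 1) := hy2
      _ ≤ 2 * Q * (2 * c * t + s * t + t) := Nat.mul_le_mul_left _ (by omega)
      _ = (2 * c + s + 1) * (2 * Q * t) := by ring

/-- **L1.** A tree line of rank below the lower bracket that lies (weakly) between a `kLo s`-core
and a `kHi s`-core of one class `c` of level `j + 1` belongs to the subtree of the child
`2 c + s` (a class of level `j`). -/
theorem between_imp {j : Fin h} {s : Bool} {y y' : Fin (2 ^ h)} {l : Line h}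
    (hyy : y.val / 2 ^ (j.val + 1) = y'.val / 2 ^ (j.val + 1))
    (hl : l.isTree = true) (hrank : l.rank < 3 * (j.val : ℤ) + 1 + (s.toNat : ℤ))
    (h1 : core j (kLo s) y ≤ l) (h2 : l ≤ core j (kHi s) y') :
    l.lvl ≤ j.val ∧ l.pos / 2 ^ j.val = 2 * (y.val / 2 ^ (j.val + 1)) + s.toNat := by
  have hj := j.isLt
  rw [le_iff] at h1 h2
  cases l with
  | Y i => simp [isTree] at hl
  | Z i => simp [isTree] at hl
  | crown a i => simp [isTree] at hl
  | thr g θ i => simp [isTree] at hl
  | leaf x =>
    simp only [k1, k2, k3, k4] at h1 h2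
    simp only [lvl, pos]
    rw [← hyy] at h2
    refine ⟨Nat.zero_le _, ?_⟩
    have hP : 2 ^ (j.val + 1) = 2 * 2 ^ j.val := by rw [pow_succ]; ring
    rw [hP] at h1 h2 ⊢
    generalize y.val / (2 * 2 ^ j.val) = c at h1 h2 ⊢
    generalize 2 ^ j.val = P at h1 h2 ⊢
    obtain ⟨b, hb⟩ : ∃ b, b = c * (2 * P) := ⟨_, rfl⟩
    rw [← hb] at h1 h2
    cases s with
    | false =>
      simp only [kLo, kHi, Bool.false_eq_true, if_false, Fin.val_zero, Fin.val_one, if_true,
        one_ne_zero, Bool.toNat_false] at h1 h2 ⊢
      apply Nat.div_eq_of_lt_le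
      · calc (2 * c + 0) * P = c * (2 * P) := by ring
          _ = b := hb.symm
          _ ≤ x.val := by omega
      · calc x.val < b + P := by omega
          _ = (2 * c + 0 + 1) * P := by rw [hb]; ring
    | true =>
      simp only [kLo, kHi, if_true, Fin.val_one, one_ne_zero, if_false, Fin.val_two,
        OfNat.ofNat_ne_zero, OfNat.ofNat_ne_one, Bool.toNat_true] at h1 h2 ⊢
      apply Nat.div_eq_of_lt_le
      · calc (2 * c + 1) * P = c * (2 * P) + P := by ring
          _ = b + P := by rw [hb]
          _ ≤ x.val := by omega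
      · calc x.val < b + 2 * P := by omega
          _ = (2 * c + 1 + 1) * P := by rw [hb]; ring
  | core j' k' y'' =>
    have hj' := j'.isLt
    have hk' := k'.isLt
    simp only [k1, k2, k3, k4] at h1 h2
    simp only [lvl, pos, rank] at hrank ⊢
    rw [← hyy] at h2
    obtain ⟨h1a, h1b⟩ := lex_facts h1
    obtain ⟨h2a, h2b⟩ := lex_facts h2
    clear h1 h2
    -- the level of `l` is below `j + 1`
    have hjj : j'.val < j.val := by
      by_contra hcon
      have hs : s = true := by
        cases s with
        | false => simp only [Bool.toNat_false] at hrank; omega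
        | true => rfl
      subst hs
      simp only [Bool.toNat_true] at hrank
      have hje : j'.val = j.val := by omega
      have hk0 : k'.val = 0 := by omega
      simp only [kLo, kHi, if_true, Fin.val_one, one_ne_zero, if_false, Fin.val_two,
        OfNat.ofNat_ne_zero, OfNat.ofNat_ne_one, hk0, hje] at h1a h1b h2a h2b
      have hP : 2 ^ (j.val + 1) = 2 * 2 ^ j.val := by rw [pow_succ]; ring
      rw [hP] at h1a h2b
      have hPpos : 0 < 2 ^ j.val := by positivity
      generalize 2 ^ j.val = P at h1a h2b hPpos
      generalize y.val / (2 * P) = c at h1a h2b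
      generalize y''.val / (2 * P) = cc at h1a h2b
      have h3 := h2b (by omega)
      have h4 : cc * (2 * P) < (c + 1) * (2 * P) := by
        have : (c + 1) * (2 * P) = c * (2 * P) + 2 * P := by ring
        omega
      have h5 : cc < c + 1 := Nat.lt_of_mul_lt_mul_right h4
      have h6 : cc * (2 * P) ≤ c * (2 * P) := Nat.mul_le_mul_right _ (by omega)
      omega
    refine ⟨by omega, ?_⟩
    -- dyadic bookkeeping
    have hQpos : 0 < 2 ^ j'.val := by positivity
    have hP : 2 ^ j.val = 2 * 2 ^ j'.val * 2 ^ (j.val - j'.val - 1) := by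
      rw [← pow_succ', ← pow_add]
      congr 1
      omega
    have hP1 : 2 ^ (j.val + 1) = 2 * (2 * 2 ^ j'.val * 2 ^ (j.val - j'.val - 1)) := by
      rw [pow_succ, hP]; ring
    have hQ1 : 2 ^ (j'.val + 1) = 2 * 2 ^ j'.val := by rw [pow_succ]; ring
    simp only [hP1, hQ1, hP] at h1a h1b h2a h2b
    rw [hP1, hP]
    have hy1 : 2 * 2 ^ j'.val * (y''.val / (2 * 2 ^ j'.val)) ≤ y''.val := Nat.mul_div_le _ _
    have hy2 : y''.val < 2 * 2 ^ j'.val * (y''.val / (2 * 2 ^ j'.val) + 1) :=
      Nat.lt_mul_div_succ _ (by positivity)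
    generalize 2 ^ (j.val - j'.val - 1) = t at h1a h1b h2a h2b ⊢
    generalize 2 ^ j'.val = Q at h1a h1b h2a h2b hy1 hy2 hQpos ⊢
    generalize y''.val / (2 * Q) = cc at h1a h1b h2a h2b hy1 hy2 ⊢
    generalize y.val / (2 * (2 * Q * t)) = c at h1a h1b h2a h2b ⊢
    have hk3 : k'.val = 0 ∨ k'.val = 1 ∨ k'.val = 2 := by omega
    cases s with
    | false =>
      simp only [kLo, kHi, Bool.false_eq_true, if_false, Fin.val_zero, Fin.val_one, if_true,
        one_ne_zero, Bool.toNat_false] at h1a h1b h2a h2b ⊢
      apply div_eq_of_keys Q t c 0 cc y''.val hy1 hy2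
      · rcases hk3 with hk | hk | hk
        · simp only [hk, if_true] at h1a
          linarith
        · simp only [hk, one_ne_zero, if_false, if_true] at h1a
          linarith
        · simp only [hk, OfNat.ofNat_ne_zero, OfNat.ofNat_ne_one, if_false] at h1a h1b
          have := h1b (by omega)
          linarith
      · rcases hk3 with hk | hk | hk
        · simp only [hk, if_true] at h2a h2b
          have := h2b (by omega)
          linarith
        · simp only [hk, one_ne_zero, if_false, if_true] at h2a
          linarith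
        · simp only [hk, OfNat.ofNat_ne_zero, OfNat.ofNat_ne_one, if_false] at h2a
          linarith
    | true =>
      simp only [kLo, kHi, if_true, Fin.val_one, one_ne_zero, if_false, Fin.val_two,
        OfNat.ofNat_ne_zero, OfNat.ofNat_ne_one, Bool.toNat_true] at h1a h1b h2a h2b ⊢
      apply div_eq_of_keys Q t c 1 cc y''.val hy1 hy2
      · rcases hk3 with hk | hk | hk
        · simp only [hk, if_true] at h1a
          linarith
        · simp only [hk, one_ne_zero, if_false, if_true] at h1a
          linarith
        · simp only [hk, OfNat.ofNat_ne_zero, OfNat.ofNat_ne_one, if_false] at h1a h1b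
          have := h1b (by omega)
          linarith
      · rcases hk3 with hk | hk | hk
        · simp only [hk, if_true] at h2a h2b
          have := h2b (by omega)
          linarith
        · simp only [hk, one_ne_zero, if_false, if_true] at h2a
          linarith
        · simp only [hk, OfNat.ofNat_ne_zero, OfNat.ofNat_ne_one, if_false] at h2a
          linarith

end Crest.Agent.Helper49.S0066
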